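import Mathlib

/-!
# Three path colouring of 2-regular multigraphs: insertion lemma

Coloured arcs are triples `(x, y, i)`, `i : Fin 3`.  A list of coloured arcs is valid if in each
colour every vertex has at most one outgoing and at most one incoming arc, and no colour class
contains a directed cycle.
-/

namespace Vale.Agent.Lib.P333K

/-- coloured arc: tail, head, colour -/
abbrev CArc := ℕ × ℕ × Fin 3

/-- one step in colour `i` -/
def St (G : List CArc) (i : Fin 3) (x y : ℕ) : Prop := (x, y, i) ∈ G

/-- tail and colour pairs -/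
def outK (G : List CArc) : List (ℕ × Fin 3) := G.map fun e => (e.1, e.2.2)

/-- head and colour pairs -/
def inK (G : List CArc) : List (ℕ × Fin 3) := G.map fun e => (e.2.1, e.2.2)

/-- valid colouring -/
structure Valid (G : List CArc) : Prop where
  out_nodup : (outK G).Nodup
  in_nodup : (inK G).Nodup
  acyc : ∀ i x, ¬ Relation.TransGen (St G i) x x

/-- `x` does not occur in the coloured arcs. -/
def Fresh (G : List CArc) (v : ℕ) : Prop := ∀ e ∈ G, e.1 ≠ v ∧ e.2.1 ≠ v

theorem St.mono {G H : List CArc} (h : ∀ e ∈ G, e ∈ H) {i : Fin 3} {x y : ℕ}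
    (hs : St G i x y) : St H i x y := h _ hs

theorem rt_mono {G H : List CArc} (h : ∀ e ∈ G, e ∈ H) {i : Fin 3} {x y : ℕ}
    (hs : Relation.ReflTransGen (St G i) x y) : Relation.ReflTransGen (St H i) x y :=
  Relation.ReflTransGen.mono (fun _ _ hh => St.mono h hh) _ _ hs

theorem tg_mono {G H : List CArc} (h : ∀ e ∈ G, e ∈ H) {i : Fin 3} {x y : ℕ}
    (hs : Relation.TransGen (St G i) x y) : Relation.TransGen (St H i) x y :=
  Relation.TransGen.mono (fun _ _ hh => St.mono h hh) _ _ hs

/-- the new arcs of an insertion -/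
def newArcs (v a1 a2 b1 b2 : ℕ) (c1 c2 c3 c4 : Fin 3) : List CArc :=
  [(a1, v, c1), (a2, v, c2), (v, b1, c3), (v, b2, c4)]

/-- A step in the enlarged list not touching `v` is a step of `R`. -/
theorem step_of_ne {R : List CArc} {v a1 a2 b1 b2 : ℕ} {c1 c2 c3 c4 i : Fin 3} {x y : ℕ}
    (h : St (R ++ newArcs v a1 a2 b1 b2 c1 c2 c3 c4) i x y) (hx : x ≠ v) (hy : y ≠ v) :
    St R i x y := by
  unfold St newArcs at *
  simp only [List.mem_append, List.mem_cons, List.not_mem_nil, or_false, Prod.mk.injEq] at h
  rcases h with h | h | h | h | h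
  · exact h
  · exact absurd h.2.1 hy
  · exact absurd h.2.1 hy
  · exact absurd h.1 hx
  · exact absurd h.1 hx

/-- First return to `v`: a path from `b ≠ v` to `v` leaves `R` only in its last arc. -/
theorem first_return {R : List CArc} {v a1 a2 b1 b2 : ℕ} {c1 c2 c3 c4 i : Fin 3} {b : ℕ}
    (hb : b ≠ v)
    (h : Relation.ReflTransGen (St (R ++ newArcs v a1 a2 b1 b2 c1 c2 c3 c4) i) b v) :
    ∃ a, Relation.ReflTransGen (St R i) b a ∧
      St (R ++ newArcs v a1 a2 b1 b2 c1 c2 c3 c4) i a v := by
  induction h using Relation.ReflTransGen.head_induction_on with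
  | refl => exact absurd rfl hb
  | @head x y hxy _ ih =>
    by_cases hy : y = v
    · subst hy
      exact ⟨x, Relation.ReflTransGen.refl, hxy⟩
    · obtain ⟨a, h1, h2⟩ := ih hy
      exact ⟨a, Relation.ReflTransGen.head (step_of_ne hxy hb hy) h1, h2⟩

/-- A cycle in the enlarged list avoiding every new arc is a cycle of `R`; otherwise it goes
through `v`. -/
theorem cycle_cases {R : List CArc} {v a1 a2 b1 b2 : ℕ} {c1 c2 c3 c4 i : Fin 3} {x y : ℕ}
    (h : Relation.TransGen (St (R ++ newArcs v a1 a2 b1 b2 c1 c2 c3 c4) i) x y) :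
    Relation.TransGen (St R i) x y ∨
      (Relation.ReflTransGen (St (R ++ newArcs v a1 a2 b1 b2 c1 c2 c3 c4) i) x v ∧
       Relation.ReflTransGen (St (R ++ newArcs v a1 a2 b1 b2 c1 c2 c3 c4) i) v y) := by
  induction h with
  | @single b hb =>
    by_cases hx : x = v
    · subst hx
      exact Or.inr ⟨Relation.ReflTransGen.refl, Relation.ReflTransGen.single hb⟩
    · by_cases hy : b = v
      · subst hy
        exact Or.inr ⟨Relation.ReflTransGen.single hb, Relation.ReflTransGen.refl⟩
      · exact Or.inl (Relation.TransGen.single (step_of_ne hb hx hy))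
  | @tail b c hb hc ih =>
    rcases ih with ih | ⟨h1, h2⟩
    · by_cases hbv : b = v
      · subst hbv
        exact Or.inr ⟨hb.to_reflTransGen, Relation.ReflTransGen.single hc⟩
      · by_cases hcv : c = v
        · subst hcv
          exact Or.inr ⟨(hb.tail hc).to_reflTransGen, Relation.ReflTransGen.refl⟩
        · exact Or.inl (ih.tail (step_of_ne hc hbv hcv))
    · exact Or.inr ⟨h1, h2.tail hc⟩

/-- Generic insertion criterion. -/
theorem valid_insert {R : List CArc} {v a1 a2 b1 b2 : ℕ} {c1 c2 c3 c4 : Fin 3}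
    (hR : Valid R) (hv : Fresh R v)
    (ha1 : a1 ≠ v) (ha2 : a2 ≠ v) (hb1 : b1 ≠ v) (hb2 : b2 ≠ v)
    (h1 : (a1, c1) ∉ outK R) (h2 : (a2, c2) ∉ outK R)
    (h3 : (b1, c3) ∉ inK R) (h4 : (b2, c4) ∉ inK R)
    (h12 : c1 ≠ c2) (h34 : c3 ≠ c4)
    (hc13 : c1 = c3 → ¬ Relation.ReflTransGen (St R c1) b1 a1)
    (hc14 : c1 = c4 → ¬ Relation.ReflTransGen (St R c1) b2 a1)
    (hc23 : c2 = c3 → ¬ Relation.ReflTransGen (St R c2) b1 a2)
    (hc24 : c2 = c4 → ¬ Relation.ReflTransGen (St R c2) b2 a2) :
    Valid (R ++ newArcs v a1 a2 b1 b2 c1 c2 c3 c4) := by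
  have hvo : ∀ c, (v, c) ∉ outK R := by
    intro c hc
    simp only [outK, List.mem_map] at hc
    obtain ⟨e, he, hh⟩ := hc
    exact (hv e he).1 (by simpa using congrArg Prod.fst hh)
  have hvi : ∀ c, (v, c) ∉ inK R := by
    intro c hc
    simp only [inK, List.mem_map] at hc
    obtain ⟨e, he, hh⟩ := hc
    exact (hv e he).2 (by simpa using congrArg Prod.fst hh)
  refine ⟨?_, ?_, ?_⟩
  · have : outK (R ++ newArcs v a1 a2 b1 b2 c1 c2 c3 c4) =
        outK R ++ [(a1, c1), (a2, c2), (v, c3), (v, c4)] := by
      simp [outK, newArcs]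
    rw [this, List.nodup_append]
    refine ⟨hR.out_nodup, ?_, ?_⟩
    · simp only [List.nodup_cons, List.mem_cons, List.not_mem_nil, or_false, Prod.mk.injEq,
        not_or, not_and, List.nodup_nil, and_true, not_false_eq_true]
      refine ⟨⟨fun _ => h12, fun h => absurd h ha1, fun h => absurd h ha1⟩,
        ⟨fun h => absurd h ha2, fun h => absurd h ha2⟩, fun _ => h34⟩
    · intro x hx y hy hxy
      subst hxy
      simp only [List.mem_cons, List.not_mem_nil, or_false] at hy
      rcases hy with rfl | rfl | rfl | rfl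
      · exact h1 hx
      · exact h2 hx
      · exact hvo _ hx
      · exact hvo _ hx
  · have : inK (R ++ newArcs v a1 a2 b1 b2 c1 c2 c3 c4) =
        inK R ++ [(v, c1), (v, c2), (b1, c3), (b2, c4)] := by
      simp [inK, newArcs]
    rw [this, List.nodup_append]
    refine ⟨hR.in_nodup, ?_, ?_⟩
    · simp only [List.nodup_cons, List.mem_cons, List.not_mem_nil, or_false, Prod.mk.injEq,
        not_or, not_and, List.nodup_nil, and_true, not_false_eq_true]
      refine ⟨⟨fun _ => h12, fun h => absurd h.symm hb1, fun h => absurd h.symm hb2⟩,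
        ⟨fun h => absurd h.symm hb1, fun h => absurd h.symm hb2⟩, fun _ => h34⟩
    · intro x hx y hy hxy
      subst hxy
      simp only [List.mem_cons, List.not_mem_nil, or_false] at hy
      rcases hy with rfl | rfl | rfl | rfl
      · exact hvi _ hx
      · exact hvi _ hx
      · exact h3 hx
      · exact h4 hx
  · intro i x hx
    rcases cycle_cases hx with hc | ⟨h1', h2'⟩
    · exact hR.acyc i x hc
    · -- a cycle through `v`
      have hvv : Relation.TransGen (St (R ++ newArcs v a1 a2 b1 b2 c1 c2 c3 c4) i) v v := by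
        have hxx : Relation.ReflTransGen (St (R ++ newArcs v a1 a2 b1 b2 c1 c2 c3 c4) i) v x := h2'
        rcases Relation.reflTransGen_iff_eq_or_transGen.mp hxx with he | he
        · subst he; exact hx
        · exact he.trans_left h1' |> fun h => h
      obtain ⟨b, hb, hrest⟩ := Relation.TransGen.head'_iff.mp hvv
      have hbn : b ≠ v := by
        intro hbv
        subst hbv
        unfold St newArcs at hb
        simp only [List.mem_append, List.mem_cons, List.not_mem_nil, or_false, Prod.mk.injEq] at hb
        rcases hb with hb | hb | hb | hb | hb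
        · exact (hv _ hb).1 rfl
        · exact ha1 hb.1.symm
        · exact ha2 hb.1.symm
        · exact hb1 hb.2.1.symm
        · exact hb2 hb.2.1.symm
      obtain ⟨a, ha, haS⟩ := first_return hbn hrest
      -- classify the two arcs
      have hbcl : (b = b1 ∧ i = c3) ∨ (b = b2 ∧ i = c4) := by
        unfold St newArcs at hb
        simp only [List.mem_append, List.mem_cons, List.not_mem_nil, or_false, Prod.mk.injEq] at hb
        rcases hb with hb | hb | hb | hb | hb
        · exact absurd rfl (hv _ hb).1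
        · exact absurd hb.1 (Ne.symm ha1)
        · exact absurd hb.1 (Ne.symm ha2)
        · exact Or.inl ⟨hb.2.1, hb.2.2⟩
        · exact Or.inr ⟨hb.2.1, hb.2.2⟩
      have hacl : (a = a1 ∧ i = c1) ∨ (a = a2 ∧ i = c2) := by
        unfold St newArcs at haS
        simp only [List.mem_append, List.mem_cons, List.not_mem_nil, or_false, Prod.mk.injEq] at haS
        rcases haS with hh | hh | hh | hh | hh
        · exact absurd rfl (hv _ hh).2
        · exact Or.inl ⟨hh.1, hh.2.2⟩
        · exact Or.inr ⟨hh.1, hh.2.2⟩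
        · exact absurd hh.2.1 (Ne.symm hb1)
        · exact absurd hh.2.1 (Ne.symm hb2)
      rcases hbcl with ⟨rfl, hi⟩ | ⟨rfl, hi⟩ <;> rcases hacl with ⟨rfl, hj⟩ | ⟨rfl, hj⟩
      · subst hj; exact hc13 hi ha
      · subst hj; exact hc23 hi ha
      · subst hj; exact hc14 hi ha
      · subst hj; exact hc24 hi ha


/-- In a valid list, two paths from one start ending at vertices with no further arc have the same
end. -/
theorem rt_end_unique {R : List CArc} (hR : Valid R) {i : Fin 3} {x y z : ℕ}
    (hxy : Relation.ReflTransGen (St R i) x y) (hxz : Relation.ReflTransGen (St R i) x z)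
    (hy : (y, i) ∉ outK R) (hz : (z, i) ∉ outK R) : y = z := by
  have hfun : ∀ {a b c : ℕ}, St R i a b → St R i a c → b = c := by
    intro a b c hb hc
    have hnd : (R.map fun e : CArc => (e.1, e.2.2)).Nodup := hR.out_nodup
    have := List.inj_on_of_nodup_map hnd hb hc rfl
    simpa using this
  have step_out : ∀ {a b : ℕ}, St R i a b → (a, i) ∈ outK R := by
    intro a b hb
    exact List.mem_map.mpr ⟨_, hb, rfl⟩
  induction hxy using Relation.ReflTransGen.head_induction_on generalizing z with
  | refl =>
    rcases Relation.ReflTransGen.cases_head hxz with h | ⟨c, hc, _⟩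
    · exact h
    · exact absurd (step_out hc) hy
  | @head a b hab _ ih =>
    rcases Relation.ReflTransGen.cases_head hxz with h | ⟨c, hc, hcz⟩
    · subst h
      exact absurd (step_out hab) hz
    · have := hfun hab hc
      subst this
      exact ih hcz hz

/-- a tail or head list with at most one entry at `x` leaves a free colour different from `α`. -/
theorem exists_free (L : List (ℕ × Fin 3)) (x : ℕ) (α : Fin 3)
    (h : (L.filter fun e => e.1 = x).length ≤ 1) : ∃ p, p ≠ α ∧ (x, p) ∉ L := by
  by_contra hcon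
  push Not at hcon
  -- two colours different from `α`
  obtain ⟨β, γ, hβ, hγ, hβγ⟩ : ∃ β γ : Fin 3, β ≠ α ∧ γ ≠ α ∧ β ≠ γ := by
    clear hcon h
    revert α; decide
  have h1 := hcon β hβ
  have h2 := hcon γ hγ
  have hsub : [(x, β), (x, γ)].Sublist (L.filter fun e => e.1 = x) ∨
      [(x, γ), (x, β)].Sublist (L.filter fun e => e.1 = x) := by
    have m1 : (x, β) ∈ L.filter fun e => e.1 = x := by simp [h1]
    have m2 : (x, γ) ∈ L.filter fun e => e.1 = x := by simp [h2]
    generalize (L.filter fun e => e.1 = x) = l at m1 m2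
    induction l with
    | nil => simp at m1
    | cons a l ih =>
      simp only [List.mem_cons] at m1 m2
      rcases m1 with rfl | m1
      · rcases m2 with m2 | m2
        · simp only [Prod.mk.injEq, true_and] at m2
          exact absurd m2.symm hβγ
        · left
          exact List.Sublist.cons_cons _ (by simpa using m2)
      · rcases m2 with rfl | m2
        · right
          exact List.Sublist.cons_cons _ (by simpa using m1)
        · rcases ih m1 m2 with hh | hh
          · exact Or.inl (hh.cons _)
          · exact Or.inr (hh.cons _)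
  rcases hsub with hs | hs
  · have := hs.length_le
    simp only [List.length_cons, List.length_nil] at this
    omega
  · have := hs.length_le
    simp only [List.length_cons, List.length_nil] at this
    omega

/-- The insertion lemma: any valid colouring with the two shortcuts extends to the arcs through a
fresh vertex `v`. -/
theorem insert_exists {R : List CArc} {v a1 a2 b1 b2 : ℕ} {α β : Fin 3}
    (hG : Valid (R ++ [(a1, b1, α), (a2, b2, β)])) (hv : Fresh R v)
    (ha1 : a1 ≠ v) (ha2 : a2 ≠ v) (hb1 : b1 ≠ v) (hb2 : b2 ≠ v)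
    (da1 : ((outK R).filter fun e => e.1 = a1).length ≤ 1)
    (da2 : ((outK R).filter fun e => e.1 = a2).length ≤ 1)
    (db1 : ((inK R).filter fun e => e.1 = b1).length ≤ 1)
    (db2 : ((inK R).filter fun e => e.1 = b2).length ≤ 1) :
    ∃ c1 c2 c3 c4 : Fin 3, Valid (R ++ newArcs v a1 a2 b1 b2 c1 c2 c3 c4) := by
  have hR : Valid R := by
    refine ⟨?_, ?_, ?_⟩
    · have := hG.out_nodup
      simp only [outK, List.map_append] at this
      exact (List.nodup_append.mp this).1
    · have := hG.in_nodup
      simp only [inK, List.map_append] at this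
      exact (List.nodup_append.mp this).1
    · intro i x hx
      exact hG.acyc i x (tg_mono (fun e he => List.mem_append_left _ he) hx)
  have hsub : ∀ e ∈ R, e ∈ R ++ [(a1, b1, α), (a2, b2, β)] :=
    fun e he => List.mem_append_left _ he
  have ho : (outK R ++ [(a1, α), (a2, β)]).Nodup := by
    have := hG.out_nodup
    simpa [outK] using this
  have hi : (inK R ++ [(b1, α), (b2, β)]).Nodup := by
    have := hG.in_nodup
    simpa [inK] using this
  have o1 : (a1, α) ∉ outK R := fun h => by
    have := (List.nodup_append.mp ho).2.2 _ h (a1, α) (by simp)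
    exact this rfl
  have o2 : (a2, β) ∉ outK R := fun h => by
    have := (List.nodup_append.mp ho).2.2 _ h (a2, β) (by simp)
    exact this rfl
  have i1 : (b1, α) ∉ inK R := fun h => by
    have := (List.nodup_append.mp hi).2.2 _ h (b1, α) (by simp)
    exact this rfl
  have i2 : (b2, β) ∉ inK R := fun h => by
    have := (List.nodup_append.mp hi).2.2 _ h (b2, β) (by simp)
    exact this rfl
  have s1 : St (R ++ [(a1, b1, α), (a2, b2, β)]) α a1 b1 := by simp [St]
  have s2 : St (R ++ [(a1, b1, α), (a2, b2, β)]) β a2 b2 := by simp [St]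
  have nc1 : ¬ Relation.ReflTransGen (St R α) b1 a1 := fun h =>
    hG.acyc α a1 (Relation.TransGen.head' s1 (rt_mono hsub h))
  have nc2 : ¬ Relation.ReflTransGen (St R β) b2 a2 := fun h =>
    hG.acyc β a2 (Relation.TransGen.head' s2 (rt_mono hsub h))
  by_cases hαβ : α = β
  · subst hαβ
    have hne : a1 ≠ a2 := by
      intro h
      subst h
      have := (List.nodup_append.mp ho).2.1
      simp at this
    have nc12 : ¬ (Relation.ReflTransGen (St R α) b1 a2 ∧
        Relation.ReflTransGen (St R α) b2 a1) := by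
      rintro ⟨h1, h2⟩
      refine hG.acyc α a1 ?_
      have p1 := Relation.TransGen.head' s1 (rt_mono hsub h1)
      have p2 := Relation.TransGen.head' s2 (rt_mono hsub h2)
      exact p1.trans p2
    obtain ⟨p1, hp1, fp1⟩ := exists_free (outK R) a1 α da1
    obtain ⟨p2, hp2, fp2⟩ := exists_free (outK R) a2 α da2
    obtain ⟨q1, hq1, fq1⟩ := exists_free (inK R) b1 α db1
    obtain ⟨q2, hq2, fq2⟩ := exists_free (inK R) b2 α db2
    -- candidates
    by_cases O1 : p2 = q2 → ¬ Relation.ReflTransGen (St R p2) b2 a2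
    · exact ⟨α, p2, α, q2, valid_insert hR hv ha1 ha2 hb1 hb2 o1 fp2 i1 fq2 hp2.symm hq2.symm
        (fun _ => nc1) (fun h => absurd h.symm hq2) (fun h => absurd h hp2) O1⟩
    by_cases O2 : p1 = q1 → ¬ Relation.ReflTransGen (St R p1) b1 a1
    · exact ⟨p1, α, q1, α, valid_insert hR hv ha1 ha2 hb1 hb2 fp1 o2 fq1 i2 hp1 hq1
        O2 (fun h => absurd h hp1) (fun h => absurd h.symm hq1) (fun _ => nc2)⟩
    push Not at O1 O2
    obtain ⟨e2, r2⟩ := O1
    obtain ⟨e1, r1⟩ := O2
    by_cases O3 : (¬ Relation.ReflTransGen (St R α) b2 a1) ∧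
        (p2 = q1 → ¬ Relation.ReflTransGen (St R p2) b1 a2)
    · exact ⟨α, p2, q1, α, valid_insert hR hv ha1 ha2 hb1 hb2 o1 fp2 fq1 i2 hp2.symm hq1
        (fun h => absurd h.symm hq1) (fun _ => O3.1) O3.2 (fun h => absurd h hp2)⟩
    by_cases O4 : (¬ Relation.ReflTransGen (St R α) b1 a2) ∧
        (p1 = q2 → ¬ Relation.ReflTransGen (St R p1) b2 a1)
    · exact ⟨p1, α, α, q2, valid_insert hR hv ha1 ha2 hb1 hb2 fp1 o2 i1 fq2 hp1 hq2.symm
        (fun h => absurd h hp1) O4.2 (fun _ => O4.1) (fun h => absurd h.symm hq2)⟩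
    exfalso
    have A3 : Relation.ReflTransGen (St R α) b2 a1 := by
      by_contra hh
      apply O3
      refine ⟨hh, ?_⟩
      intro e h'
      -- p2 = q1 = p1 =: s
      have e' : p1 = p2 := e1.trans e.symm
      subst e'
      exact hne (rt_end_unique hR r1 h' fp1 fp2)
    have A4 : Relation.ReflTransGen (St R α) b1 a2 := by
      by_contra hh
      apply O4
      refine ⟨hh, ?_⟩
      intro e h'
      have e' : p1 = p2 := e.trans e2.symm
      subst e'
      exact hne (rt_end_unique hR h' r2 fp1 fp2)
    exact nc12 ⟨A4, A3⟩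
  · refine ⟨α, β, α, β, valid_insert hR hv ha1 ha2 hb1 hb2 o1 o2 i1 i2 hαβ hαβ
      (fun _ => nc1) (fun h => absurd h hαβ) (fun h => absurd h.symm hαβ) (fun _ => nc2)⟩

end Vale.Agent.Lib.P333K
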